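import Mathlib

/-!
The oscillatory integral `∫_0^1 exp(2πi(m x - k x²)) dx` is `O(k^{-1/2})`, uniformly in `m`.
-/

open MeasureTheory intervalIntegral

namespace Vale.Agent.P092.R2.H350

/-- `exp(-2πi k t²)` -/
noncomputable def gs (k t : ℝ) : ℂ := Complex.exp (-(2 * Real.pi * k * t ^ 2 : ℝ) * Complex.I)

theorem norm_gs (k t : ℝ) : ‖gs k t‖ = 1 := by
  have : gs k t = Complex.exp ((-(2 * Real.pi * k * t ^ 2) : ℝ) * Complex.I) := by
    rw [gs]; push_cast; rfl
  rw [this, Complex.norm_exp_ofReal_mul_I]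

theorem continuous_gs (k : ℝ) : Continuous (gs k) := by
  unfold gs
  fun_prop

theorem hasDerivAt_gs (k t : ℝ) :
    HasDerivAt (gs k) (gs k t * (-(4 * Real.pi * k * t : ℝ) * Complex.I)) t := by
  have h1 : HasDerivAt (fun t : ℝ => 2 * Real.pi * k * t ^ 2) (4 * Real.pi * k * t) t := by
    have := (hasDerivAt_pow 2 t).const_mul (2 * Real.pi * k)
    refine this.congr_deriv ?_
    push_cast
    ring
  have h2 : HasDerivAt (fun t : ℝ => (-(2 * Real.pi * k * t ^ 2 : ℝ) * Complex.I : ℂ))
      (-(4 * Real.pi * k * t : ℝ) * Complex.I) t := (h1.ofReal_comp.neg).mul_const _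
  exact h2.cexp

/-- Away from the stationary point. -/
theorem norm_gs_far {k d x : ℝ} (hk : 0 < k) (hd : 0 < d) (hx : d ≤ x) :
    ‖∫ t in d..x, gs k t‖ ≤ 1 / (2 * Real.pi * k * d) := by
  have hpi := Real.pi_pos
  set c : ℝ := 4 * Real.pi * k with hc
  have hc0 : 0 < c := by positivity
  -- the primitive
  set F : ℝ → ℂ := fun t => gs k t * ((1 / (c * t) : ℝ) * Complex.I) with hF
  have hpos : ∀ t ∈ Set.uIcc d x, 0 < t := fun t ht => by
    rw [Set.uIcc_of_le hx] at ht
    exact hd.trans_le ht.1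
  have hderiv : ∀ t ∈ Set.uIcc d x, HasDerivAt F
      (gs k t + gs k t * ((-(1 / (c * t ^ 2)) : ℝ) * Complex.I)) t := by
    intro t ht
    have ht0 := (hpos t ht).ne'
    have h1 : HasDerivAt (fun t : ℝ => 1 / (c * t)) (-(1 / (c * t ^ 2))) t := by
      have h2 := (hasDerivAt_inv ht0).const_mul (1 / c)
      have e : (fun t : ℝ => 1 / (c * t)) = fun y => 1 / c * y⁻¹ := funext fun s => by
        rw [one_div, mul_inv, one_div]
      rw [e]
      exact h2.congr_deriv (by field_simp)
    have h3 : HasDerivAt (fun t : ℝ => (((1 / (c * t) : ℝ) : ℂ) * Complex.I))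
        ((-(1 / (c * t ^ 2)) : ℝ) * Complex.I) t := h1.ofReal_comp.mul_const _
    have h4 := (hasDerivAt_gs k t).mul h3
    refine h4.congr_deriv ?_
    have h5 : gs k t * (-(4 * Real.pi * k * t : ℝ) * Complex.I) *
        (((1 / (c * t) : ℝ) : ℂ) * Complex.I) = gs k t := by
      have h6 : (-((4 * Real.pi * k * t : ℝ) : ℂ) * Complex.I) *
          (((1 / (c * t) : ℝ) : ℂ) * Complex.I) = 1 := by
        have h7 : (-((4 * Real.pi * k * t : ℝ) : ℂ) * Complex.I) *
          (((1 / (c * t) : ℝ) : ℂ) * Complex.I) =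
            -((((4 * Real.pi * k * t) * (1 / (c * t)) : ℝ) : ℂ)) * (Complex.I * Complex.I) := by
          push_cast; ring
        rw [h7, Complex.I_mul_I]
        have h8 : (4 * Real.pi * k * t) * (1 / (c * t)) = 1 := by
          rw [hc]; field_simp
        rw [h8]
        push_cast; ring
      rw [mul_assoc, h6, mul_one]
    rw [h5]
  have hcont : ContinuousOn (fun t : ℝ => gs k t * ((-(1 / (c * t ^ 2)) : ℝ) * Complex.I))
      (Set.uIcc d x) := by
    refine ContinuousOn.mul (continuous_gs k).continuousOn ?_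
    refine ContinuousOn.mul ?_ continuousOn_const
    refine Complex.continuous_ofReal.comp_continuousOn ?_
    refine ContinuousOn.neg (ContinuousOn.div continuousOn_const (by fun_prop) fun t ht => ?_)
    have := hpos t ht
    positivity
  have hi1 : IntervalIntegrable (gs k) volume d x := (continuous_gs k).intervalIntegrable _ _
  have hi2 : IntervalIntegrable (fun t : ℝ => gs k t * ((-(1 / (c * t ^ 2)) : ℝ) * Complex.I))
      volume d x := hcont.intervalIntegrable
  have h := integral_eq_sub_of_hasDerivAt hderiv (hi1.add hi2)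
  rw [integral_add hi1 hi2] at h
  have h1 : ∫ t in d..x, gs k t = F x - F d -
      ∫ t in d..x, gs k t * ((-(1 / (c * t ^ 2)) : ℝ) * Complex.I) := by
    rw [← h]; ring
  have hnF : ∀ t, 0 < t → ‖F t‖ = 1 / (c * t) := fun t ht => by
    rw [hF]
    beta_reduce
    rw [norm_mul, norm_gs, norm_mul, Complex.norm_I, Complex.norm_real, Real.norm_eq_abs,
      abs_of_pos (by positivity), one_mul, mul_one]
  have h2 : ‖∫ t in d..x, gs k t * ((-(1 / (c * t ^ 2)) : ℝ) * Complex.I)‖ ≤
      1 / (c * d) - 1 / (c * x) := by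
    have h3 : ∀ t ∈ Set.uIcc d x, HasDerivAt (fun t : ℝ => -(1 / (c * t))) (1 / (c * t ^ 2)) t := by
      intro t ht
      have ht0 := (hpos t ht).ne'
      have h4 := ((hasDerivAt_inv ht0).const_mul (1 / c)).neg
      have e : (fun t : ℝ => -(1 / (c * t))) = -fun y => 1 / c * y⁻¹ := funext fun s => by
        rw [Pi.neg_apply, one_div, mul_inv, one_div]
      rw [e]
      exact h4.congr_deriv (by field_simp)
    have hi3 : IntervalIntegrable (fun t : ℝ => 1 / (c * t ^ 2)) volume d x := by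
      refine (ContinuousOn.div continuousOn_const (by fun_prop) fun t ht => ?_).intervalIntegrable
      have := hpos t ht
      positivity
    have h5 := integral_eq_sub_of_hasDerivAt h3 hi3
    calc ‖∫ t in d..x, gs k t * ((-(1 / (c * t ^ 2)) : ℝ) * Complex.I)‖
        ≤ ∫ t in d..x, 1 / (c * t ^ 2) := by
          refine norm_integral_le_of_norm_le hx ?_ hi3
          refine Filter.Eventually.of_forall fun t ht => ?_
          have ht0 : 0 < t := hd.trans ht.1
          rw [norm_mul, norm_gs, norm_mul, Complex.norm_I, Complex.norm_real, norm_neg,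
            Real.norm_eq_abs, abs_of_pos (by positivity), one_mul, mul_one]
      _ = 1 / (c * d) - 1 / (c * x) := by rw [h5]; ring
  have hx0 : 0 < x := hd.trans_le hx
  calc ‖∫ t in d..x, gs k t‖ ≤ ‖F x‖ + ‖F d‖ +
        ‖∫ t in d..x, gs k t * ((-(1 / (c * t ^ 2)) : ℝ) * Complex.I)‖ := by
        rw [h1]
        exact (norm_sub_le _ _).trans (add_le_add (norm_sub_le _ _) le_rfl)
    _ ≤ 1 / (c * x) + 1 / (c * d) + (1 / (c * d) - 1 / (c * x)) := by
        rw [hnF x hx0, hnF d hd]
        gcongr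
    _ = 1 / (2 * Real.pi * k * d) := by
        rw [hc]; field_simp; ring

/-- The primitive from the stationary point. -/
theorem norm_gs_zero {k x : ℝ} (hk : 0 < k) (hx : 0 ≤ x) :
    ‖∫ t in (0 : ℝ)..x, gs k t‖ ≤ 2 / Real.sqrt k := by
  have hs : 0 < Real.sqrt k := Real.sqrt_pos.mpr hk
  have hnear : ∀ y : ℝ, 0 ≤ y → ‖∫ t in (0 : ℝ)..y, gs k t‖ ≤ y := fun y hy => by
    have := norm_integral_le_of_norm_le_const (a := (0 : ℝ)) (b := y) (f := gs k) (C := 1)
      fun t _ => (norm_gs k t).le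
    rwa [sub_zero, abs_of_nonneg hy, one_mul] at this
  set d : ℝ := 1 / Real.sqrt k with hd
  have hd0 : 0 < d := by positivity
  by_cases hxd : x ≤ d
  · calc _ ≤ x := hnear x hx
      _ ≤ d := hxd
      _ ≤ 2 / Real.sqrt k := by rw [hd]; gcongr; norm_num
  · push Not at hxd
    have h1 : ∫ t in (0 : ℝ)..x, gs k t = (∫ t in (0 : ℝ)..d, gs k t) + ∫ t in d..x, gs k t :=
      (integral_add_adjacent_intervals ((continuous_gs k).intervalIntegrable _ _)
        ((continuous_gs k).intervalIntegrable _ _)).symm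
    have h2 := norm_gs_far hk hd0 hxd.le
    have h3 : 1 / (2 * Real.pi * k * d) ≤ 1 / Real.sqrt k := by
      have h4 : k * d = Real.sqrt k := by
        rw [hd]
        nth_rewrite 1 [← Real.mul_self_sqrt hk.le]
        field_simp
      rw [mul_assoc, h4]
      apply one_div_le_one_div_of_le hs
      have := Real.pi_gt_three
      nlinarith
    calc ‖∫ t in (0 : ℝ)..x, gs k t‖ ≤ ‖∫ t in (0 : ℝ)..d, gs k t‖ + ‖∫ t in d..x, gs k t‖ := by
          rw [h1]; exact norm_add_le _ _
      _ ≤ d + 1 / Real.sqrt k := add_le_add (hnear d hd0.le) (h2.trans h3)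
      _ = 2 / Real.sqrt k := by rw [hd]; ring

theorem norm_gs_zero' {k : ℝ} (hk : 0 < k) (x : ℝ) :
    ‖∫ t in (0 : ℝ)..x, gs k t‖ ≤ 2 / Real.sqrt k := by
  rcases le_total 0 x with hx | hx
  · exact norm_gs_zero hk hx
  · have h1 : ∫ t in (0 : ℝ)..x, gs k t = -∫ t in (0 : ℝ)..(-x), gs k t := by
      have h2 := integral_comp_neg (a := (0 : ℝ)) (b := -x) (gs k)
      have h3 : ∀ t, gs k (-t) = gs k t := fun t => by rw [gs, gs, neg_sq]
      simp only [h3, neg_neg, neg_zero] at h2
      rw [h2, integral_symm]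
    rw [h1, norm_neg]
    exact norm_gs_zero hk (by linarith)

/-- The oscillatory integral. -/
theorem norm_osc {k : ℝ} (hk : 0 < k) (m : ℝ) :
    ‖∫ x in (0 : ℝ)..1, Complex.exp (2 * Real.pi * Complex.I * ((m * x - k * x ^ 2 : ℝ) : ℂ))‖ ≤
      4 / Real.sqrt k := by
  set c : ℝ := m / (2 * k) with hc
  have h1 : ∀ x : ℝ, Complex.exp (2 * Real.pi * Complex.I * ((m * x - k * x ^ 2 : ℝ) : ℂ)) =
      Complex.exp ((2 * Real.pi * (m ^ 2 / (4 * k)) : ℝ) * Complex.I) * gs k (x - c) := by
    intro x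
    rw [gs, ← Complex.exp_add]
    congr 1
    have h2 : m * x - k * x ^ 2 = m ^ 2 / (4 * k) - k * (x - c) ^ 2 := by
      rw [hc]; field_simp; ring
    rw [h2]
    push_cast
    ring
  simp only [h1]
  rw [intervalIntegral.integral_const_mul, norm_mul, Complex.norm_exp_ofReal_mul_I, one_mul,
    integral_comp_sub_right (gs k) c]
  have h3 : ∫ t in (0 - c)..(1 - c), gs k t =
      (∫ t in (0 : ℝ)..(1 - c), gs k t) - ∫ t in (0 : ℝ)..(0 - c), gs k t :=
    (integral_interval_sub_left ((continuous_gs k).intervalIntegrable _ _)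
      ((continuous_gs k).intervalIntegrable _ _)).symm
  rw [h3]
  calc _ ≤ ‖∫ t in (0 : ℝ)..(1 - c), gs k t‖ + ‖∫ t in (0 : ℝ)..(0 - c), gs k t‖ :=
        norm_sub_le _ _
    _ ≤ 2 / Real.sqrt k + 2 / Real.sqrt k := add_le_add (norm_gs_zero' hk _) (norm_gs_zero' hk _)
    _ = 4 / Real.sqrt k := by ring

end Vale.Agent.P092.R2.H350
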