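import Vale.Agent.P092.R2.H559.Final
import Vale.Agent.P092.H885.Conv
import Vale.Agent.P092.R2.H350.Osc

/-!
Exotic automorphisms of `L(ℤ^{2n} ⋊ Sp_{2n}(ℤ))`.
-/

open scoped InnerProductSpace
open MeasureTheory Matrix

namespace Vale.Agent.P092.R2.H350

open Vale.Agent.P092.H160 Vale.Agent.P092.R2.H559

noncomputable section

/-- In this file the measure on `ℝ / ℤ` is normalised to have total volume 1. -/
local instance : MeasureSpace UnitAddCircle := ⟨AddCircle.haarAddCircle⟩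

local instance : Measure.IsAddHaarMeasure (volume : Measure UnitAddCircle) :=
  inferInstanceAs (Measure.IsAddHaarMeasure AddCircle.haarAddCircle)

local instance : IsProbabilityMeasure (volume : Measure UnitAddCircle) :=
  inferInstanceAs (IsProbabilityMeasure AddCircle.haarAddCircle)

variable {n : ℕ}

/-- the phase `∑ (x_i y_i - 2 [y_i] x_i)` -/
def phs (x : Fin n ⊕ Fin n → ℝ) : ℝ :=
  ∑ i : Fin n, (x (Sum.inl i) * x (Sum.inr i) - 2 * (⌊x (Sum.inr i)⌋ : ℝ) * x (Sum.inl i))

theorem omA_real (u : Lat n) (x : Fin n ⊕ Fin n → ℝ) :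
    omA u x = ∑ i : Fin n, ((u (Sum.inl i) : ℝ) * x (Sum.inr i) -
      (u (Sum.inr i) : ℝ) * x (Sum.inl i)) := by
  simp only [omA, Fintype.sum_sum_type, rot, Sum.elim_inl, Sum.elim_inr, zsmul_eq_mul,
    Finset.sum_sub_distrib, Int.cast_neg, neg_mul, Finset.sum_neg_distrib]
  ring

theorem phs_add (x : Fin n ⊕ Fin n → ℝ) (m : Lat n) :
    ∃ k : ℤ, phs (x + ir m) = phs x + omA m x + k := by
  refine ⟨∑ i : Fin n, (-(m (Sum.inl i) * m (Sum.inr i)) - 2 * ⌊x (Sum.inr i)⌋ * m (Sum.inl i)), ?_⟩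
  rw [omA_real]
  push_cast
  simp only [phs, ← Finset.sum_add_distrib]
  refine Finset.sum_congr rfl fun i _ => ?_
  have h1 : (x + ir m) (Sum.inl i) = x (Sum.inl i) + (m (Sum.inl i) : ℝ) := rfl
  have h2 : (x + ir m) (Sum.inr i) = x (Sum.inr i) + (m (Sum.inr i) : ℝ) := rfl
  rw [h1, h2, Int.floor_add_intCast]
  push_cast
  ring

/-- the cocycle -/
def wE (N : ℤ) (a : Gam n) (x : Fin n ⊕ Fin n → ℝ) : ℂ :=
  ee (omA (Multiplicative.toAdd a.left) x + N * (phs (mact (mt a.right⁻¹) x) - phs x))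

theorem norm_wE (N : ℤ) (a : Gam n) (x : Fin n ⊕ Fin n → ℝ) : ‖wE N a x‖ = 1 := norm_ee _

theorem wE_mul (N : ℤ) (a b : Gam n) (x : Fin n ⊕ Fin n → ℝ) :
    wE N (a * b) x = wE N a x * wE N b (mact (mt a.right⁻¹) x) := by
  have h1 : omA (Multiplicative.toAdd (a * b).left) x =
      omA (Multiplicative.toAdd a.left) x +
        omA (Multiplicative.toAdd b.left) (mact (mt a.right⁻¹) x) := by
    rw [← omA_act_left, ← omA_add_left]
    rfl
  have h2 : mact (mt (a * b).right⁻¹) x = mact (mt b.right⁻¹) (mact (mt a.right⁻¹) x) := by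
    rw [← mact_mul, ← mt_mul, ← _root_.mul_inv_rev]
    rfl
  rw [wE, wE, wE, ← ee_add, h1, h2]
  congr 1
  ring

theorem wE_periodic (N : ℤ) (a : Gam n) (x : Fin n ⊕ Fin n → ℝ) (m : Lat n) :
    wE N a (x + ir m) = wE N a x := by
  obtain ⟨k, hk⟩ := phs_add x m
  obtain ⟨l, hl⟩ := phs_add (mact (mt a.right⁻¹) x) (mt a.right⁻¹ *ᵥ m)
  have h1 : omA (mt a.right⁻¹ *ᵥ m) (mact (mt a.right⁻¹) x) = omA m x := omA_act _ _ _
  rw [h1] at hl
  rw [wE, wE, mact_add, mact_ir, hk, hl, omA_add_right, omA_ir]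
  have h2 : omA (Multiplicative.toAdd a.left) x + (om (Multiplicative.toAdd a.left) m : ℝ) +
      N * (phs (mact (mt a.right⁻¹) x) + omA m x + l - (phs x + omA m x + k)) =
      omA (Multiplicative.toAdd a.left) x + N * (phs (mact (mt a.right⁻¹) x) - phs x) +
        ((om (Multiplicative.toAdd a.left) m + N * (l - k) : ℤ) : ℝ) := by
    push_cast; ring
  rw [h2, ee_add_int]

theorem measurable_phs : Measurable (phs (n := n)) := by
  unfold phs
  refine Finset.measurable_sum _ fun i _ => ?_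
  have h1 : Measurable fun x : Fin n ⊕ Fin n → ℝ => x (Sum.inl i) := measurable_pi_apply _
  have h2 : Measurable fun x : Fin n ⊕ Fin n → ℝ => x (Sum.inr i) := measurable_pi_apply _
  have h3 : Measurable fun x : Fin n ⊕ Fin n → ℝ => (⌊x (Sum.inr i)⌋ : ℝ) :=
    (measurable_of_countable _ : Measurable fun k : ℤ => (k : ℝ)).comp
      (Int.measurable_floor.comp h2)
  exact (h1.mul h2).sub ((measurable_const.mul h3).mul h1)

theorem measurable_wE (N : ℤ) (a : Gam n) : Measurable (wE N a) := by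
  unfold wE
  refine measurable_ee.comp ?_
  refine Measurable.add (measurable_omA.comp (measurable_const.prodMk measurable_id)) ?_
  exact measurable_const.mul ((measurable_phs.comp (measurable_mact _)).sub measurable_phs)

/-- the cocycle on the torus -/
def wEt (N : ℤ) (a : Gam n) (z : Tor n) : ℂ := wE N a (rep z)

theorem wEt_mul (N : ℤ) (a b : Gam n) (z : Tor n) :
    wEt N (a * b) z = wEt N a z * wEt N b (a.right⁻¹ • z) := by
  obtain ⟨m, hm⟩ := rep_smul a.right⁻¹ z
  rw [wEt, wEt, wEt, wE_mul, hm, wE_periodic]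

theorem wEt_ker (N : ℤ) {a : Gam n} (ha : a.right = 1) (z : Tor n) :
    wEt N a z = UnitAddTorus.mFourier (rot (Multiplicative.toAdd a.left)) z := by
  have h : mact (mt a.right⁻¹) (rep z) = rep z := by
    rw [ha, inv_one]
    exact mact_one _
  rw [wEt, wE, h, sub_self, mul_zero, add_zero, ee_omA_rep]

/-- the projection -/
def pG (n : ℕ) : St.Gam n →* Sp n where
  toFun a := a.g
  map_one' := rfl
  map_mul' _ _ := rfl

/-- The data of the cocycle. -/
def DD (n : ℕ) (N : ℤ) : Dat (Sp n) (Tor n) (volume : Measure (Tor n)) (St.Gam n) where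
  p := pG n
  w := fun a => wEt N (eG n a)
  meas := fun a => (measurable_wE N (eG n a)).comp measurable_rep
  nrm := fun a z => norm_wE _ _ _
  coc := fun a b z => by
    rw [map_mul, wEt_mul]
    rfl
  surj := fun g => ⟨⟨0, g⟩, rfl⟩
  orth := fun a ha hne => by
    have hr : (eG n a).right = 1 := ha
    simp only [wEt_ker N hr]
    refine integral_mFourier fun h => hne ?_
    have h0 : a.u = 0 := rot_eq_zero h
    exact St.Gam.ext h0 ha
  tot := fun f hf => by
    refine eq_zero_of_mFourier fun k => ?_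
    have h1 := hf ⟨-rot k, 1⟩ rfl
    have h2 : (uv (wEt N (eG n ⟨-rot k, 1⟩)) ((measurable_wE N (eG n ⟨-rot k, 1⟩)).comp
        measurable_rep) (fun z => norm_wE _ _ _) : Lp ℂ 2 (volume : Measure (Tor n))) =
        UnitAddTorus.mFourierLp 2 k := by
      refine uv_eq_mFourierLp _ _ fun z => ?_
      rw [wEt_ker N rfl]
      change UnitAddTorus.mFourier (rot (-rot k)) z = _
      rw [rot_neg, rot_rot, neg_neg]
    rw [← h2]
    exact h1

theorem hmp (s : Sp n) : MeasurePreserving (fun z : Tor n => s • z) volume volume :=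
  measurePreserving_smul s

/-- the unitary -/
def WW (n : ℕ) (N : ℤ) : Ell2 (St.Gam n) ≃ₗᵢ[ℂ] Ell2 (St.Gam n) := (DD n 0).W (DD n N)

theorem WW_apply (N : ℤ) (ξ : Ell2 (St.Gam n)) :
    WW n N ξ = (DD n N).U.symm ((DD n 0).U ξ) := rfl

theorem U_WW (N : ℤ) (ξ : Ell2 (St.Gam n)) : (DD n N).U (WW n N ξ) = (DD n 0).U ξ := by
  rw [WW_apply, LinearIsometryEquiv.apply_symm_apply]

theorem spatial_WW (n : ℕ) (N : ℤ) : Spatial (WW n N) := by
  refine ⟨Dat.W_one _ _, fun T => ?_⟩
  rw [inL_iff, inL_iff]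
  exact Dat.conj_mem_iff _ hmp _

/-- the multiplier between the two cocycles -/
def mlt (N : ℤ) (s : Sp n) (z : Tor n) : ℂ :=
  ee (N * (phs (mact (mt s⁻¹) (rep z)) - phs (rep z)))

theorem measurable_mlt (N : ℤ) (s : Sp n) : Measurable (mlt (n := n) N s) := by
  refine measurable_ee.comp ?_
  exact measurable_const.mul (((measurable_phs.comp (measurable_mact _)).comp measurable_rep).sub
    (measurable_phs.comp measurable_rep))

/-- the block diagonal operator -/
def VV (n : ℕ) (N : ℤ) : L2s (Sp n) (Lp ℂ 2 (volume : Measure (Tor n))) →ₗᵢ[ℂ]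
    L2s (Sp n) (Lp ℂ 2 (volume : Measure (Tor n))) :=
  blk (Equiv.refl _) fun s => mop (mlt N s) (measurable_mlt N s) (fun _ => norm_ee _) id
    (MeasurePreserving.id _)

theorem VV_eps (N M : ℤ) (a : St.Gam n) :
    VV n N ((DD n M).eps a) = (DD n (N + M)).eps a := by
  apply lp.ext
  funext s
  rw [VV, blk_apply, Equiv.refl_apply]
  by_cases h : s = pG n a
  · rw [(DD n M).eps_apply_of_eq h, (DD n (N + M)).eps_apply_of_eq h]
    refine mop_uv _ _ _ _ _ _ _ fun z => ?_
    change mlt N s z * wEt M (eG n a) z = wEt (N + M) (eG n a) z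
    rw [mlt, wEt, wEt, wE, wE, ← ee_add, h]
    congr 1
    change _ = _ + ((N + M : ℤ) : ℝ) * (phs (mact (mt (pG n a)⁻¹) (rep z)) - phs (rep z))
    change _ + (_ + (M : ℝ) * (phs (mact (mt (pG n a)⁻¹) (rep z)) - phs (rep z))) = _
    push_cast
    ring
  · rw [(DD n M).eps_apply_ne h, (DD n (N + M)).eps_apply_ne h, map_zero]

theorem VV_U (N M : ℤ) (ξ : Ell2 (St.Gam n)) :
    VV n N ((DD n M).U ξ) = (DD n (N + M)).U ξ := by
  have h : (VV n N).toContinuousLinearMap ∘L
      ((DD n M).U.toContinuousLinearEquiv : Ell2 (St.Gam n) →L[ℂ] _) =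
      ((DD n (N + M)).U.toContinuousLinearEquiv : Ell2 (St.Gam n) →L[ℂ] _) := by
    refine op_ext fun a => ?_
    change VV n N ((DD n M).U (dl a)) = (DD n (N + M)).U (dl a)
    rw [Dat.U_dl, Dat.U_dl, VV_eps]
  exact DFunLike.congr_fun h ξ

theorem WW_add (N M : ℤ) (ξ : Ell2 (St.Gam n)) : WW n (N + M) ξ = WW n N (WW n M ξ) := by
  rw [WW_apply (N + M), LinearIsometryEquiv.symm_apply_eq]
  have h1 := VV_U M N (WW n N (WW n M ξ))
  rw [U_WW, add_comm M N] at h1
  rw [← h1]
  have h2 := VV_U M 0 (WW n M ξ)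
  rw [add_zero] at h2
  rw [h2, U_WW]

theorem WW_zero (ξ : Ell2 (St.Gam n)) : WW n 0 ξ = ξ := by
  rw [WW_apply, LinearIsometryEquiv.symm_apply_apply]

/-- The automorphisms. -/
def th (n : ℕ) (N : ℤ) : St.StarIso (St.Gam n) (St.Gam n) := (spatial_WW n N).starIso

theorem th_apply (N : ℤ) (T : St.Op (St.Gam n)) : (th n N).toFun T = conj (WW n N) T := rfl

theorem th_add (N M : ℤ) (T : St.Op (St.Gam n)) :
    (th n (N + M)).toFun T = (th n N).toFun ((th n M).toFun T) := by
  refine ContinuousLinearMap.ext fun ξ => ?_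
  simp only [th_apply, conj_apply]
  obtain ⟨η, rfl⟩ := (WW n (N + M)).surjective ξ
  rw [LinearIsometryEquiv.symm_apply_apply, WW_add, WW_add N M η,
    LinearIsometryEquiv.symm_apply_apply, LinearIsometryEquiv.symm_apply_apply]

theorem th_zero (T : St.Op (St.Gam n)) : (th n 0).toFun T = T := by
  refine ContinuousLinearMap.ext fun ξ => ?_
  rw [th_apply, conj_apply, WW_zero]
  congr 1
  rw [LinearIsometryEquiv.symm_apply_eq, WW_zero]

/-- The automorphisms are trivial on `ℤ^{2n}`. -/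
theorem th_tr (N : ℤ) {a : St.Gam n} (ha : a.g = 1) : (th n N).toFun (St.u a) = St.u a := by
  refine ContinuousLinearMap.ext fun ξ => ?_
  rw [th_apply, conj_apply]
  obtain ⟨η, rfl⟩ := (WW n N).surjective ξ
  rw [LinearIsometryEquiv.symm_apply_apply]
  change WW n N (lam a η) = lam a (WW n N η)
  apply (DD n N).U.injective
  rw [U_WW, (DD n N).U_lam hmp, U_WW, (DD n 0).U_lam hmp]
  have hw : ∀ z, wEt 0 (eG n a) z = wEt N (eG n a) z := fun z => by
    rw [wEt_ker 0 ha, wEt_ker N ha]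
  apply lp.ext
  funext s
  rw [Dat.Lo, Dat.Lo, blk_apply, blk_apply]
  apply Lp.ext
  refine (mop_coe _ _ _ _).trans (Filter.EventuallyEq.symm ((mop_coe _ _ _ _).trans ?_))
  refine Filter.Eventually.of_forall fun z => ?_
  change wEt N (eG n a) z * _ = wEt 0 (eG n a) z * _
  rw [hw]
  rfl

end

end Vale.Agent.P092.R2.H350
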