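import Vale.Agent.P092.R2.H350.Exo

/-!
The exotic automorphisms of `L(ℤ^{2n} ⋊ Sp_{2n}(ℤ))` are not canonical.
-/

open scoped InnerProductSpace
open MeasureTheory Matrix

namespace Vale.Agent.P092.R2.H350

open Vale.Agent.P092.H160 Vale.Agent.P092.R2.H559

noncomputable section

/-- In this file the measure on `ℝ / ℤ` is normalised to have total volume 1. -/
local instance : MeasureSpace UnitAddCircle := ⟨AddCircle.haarAddCircle⟩

local instance : Measure.IsAddHaarMeasure (volume : Measure UnitAddCircle) :=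
  inferInstanceAs (Measure.IsAddHaarMeasure AddCircle.haarAddCircle)

local instance : IsProbabilityMeasure (volume : Measure UnitAddCircle) :=
  inferInstanceAs (IsProbabilityMeasure AddCircle.haarAddCircle)

/-- the representative in `[0,1)` of a point of the circle -/
def rep1 (t : UnitAddCircle) : ℝ := (AddCircle.equivIco (1 : ℝ) 0 t : ℝ)

theorem rep1_mem (t : UnitAddCircle) : 0 ≤ rep1 t ∧ rep1 t < 1 := by
  have h := (AddCircle.equivIco (1 : ℝ) 0 t).2
  have h1 : 0 ≤ rep1 t := h.1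
  have h2 : rep1 t < 0 + 1 := h.2
  exact ⟨h1, by linarith⟩

theorem rep1_coe {x : ℝ} (h0 : 0 ≤ x) (h1 : x < 1) : rep1 (x : UnitAddCircle) = x := by
  rw [rep1, AddCircle.coe_equivIco_mk_apply, mul_one, div_one, Int.fract_eq_self.mpr ⟨h0, h1⟩]

/-- The one dimensional coefficient. -/
theorem norm_coeff1 {c : ℝ} (hc : 0 < c) (m : ℤ) :
    ‖∫ t : UnitAddCircle, fourier m t * ee (-(c * rep1 t ^ 2))‖ ≤ 4 / Real.sqrt c := by
  have h1 : ∫ t : UnitAddCircle, fourier m t * ee (-(c * rep1 t ^ 2)) =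
      fourierCoeff (fun t : UnitAddCircle => ee (-(c * rep1 t ^ 2))) (-m) := by
    rw [fourierCoeff, neg_neg]
    rfl
  rw [h1, fourierCoeff_eq_intervalIntegral _ _ 0, neg_neg, zero_add, one_div, inv_one, one_smul]
  refine le_trans (le_of_eq ?_) (norm_osc hc m)
  congr 1
  refine intervalIntegral.integral_congr_ae ?_
  have hne : ∀ᵐ x : ℝ, x ≠ 1 := by
    simp [ae_iff, measure_singleton]
  filter_upwards [hne] with x hx hmem
  rw [Set.uIoc_of_le zero_le_one] at hmem
  rw [rep1_coe hmem.1.le (lt_of_le_of_ne hmem.2 hx), fourier_coe_apply, ee, smul_eq_mul,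
    ← Complex.exp_add]
  congr 1
  push_cast
  ring

variable {n : ℕ}

/-- the unipotent matrix `x_i ↦ x_i + k y_i` -/
def hk (i : Fin n) (k : ℤ) : Sp n := ⟨fromBlocks 1 (Matrix.single i i k) 0 1, by
  rw [SymplecticGroup.mem_iff, Matrix.J, fromBlocks_transpose, fromBlocks_multiply,
    fromBlocks_multiply]
  simp [transpose_single]⟩

theorem mact_hk_inr (i : Fin n) (k : ℤ) (x : Fin n ⊕ Fin n → ℝ) (j : Fin n) :
    mact (mt (hk i k)) x (Sum.inr j) = x (Sum.inr j) := by
  simp only [mact, Fintype.sum_sum_type]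
  change ∑ l, (0 : Matrix (Fin n) (Fin n) ℤ) j l • x (Sum.inl l) +
    ∑ l, (1 : Matrix (Fin n) (Fin n) ℤ) j l • x (Sum.inr l) = _
  simp [Matrix.one_apply]

theorem mact_hk_inl (i : Fin n) (k : ℤ) (x : Fin n ⊕ Fin n → ℝ) (j : Fin n) :
    mact (mt (hk i k)) x (Sum.inl j) =
      x (Sum.inl j) + if j = i then (k : ℝ) * x (Sum.inr i) else 0 := by
  simp only [mact, Fintype.sum_sum_type]
  change ∑ l, (1 : Matrix (Fin n) (Fin n) ℤ) j l • x (Sum.inl l) +
    ∑ l, (Matrix.single i i k) j l • x (Sum.inr l) = _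
  congr 1
  · simp [Matrix.one_apply]
  · by_cases h : j = i
    · subst h
      rw [if_pos rfl, Finset.sum_eq_single j]
      · rw [Matrix.single_apply_same, zsmul_eq_mul]
      · intro l _ hl
        rw [Matrix.single_apply_of_ne _ _ _ _ _ (by simp [Ne.symm hl]), zero_smul]
      · intro h; exact absurd (Finset.mem_univ _) h
    · rw [if_neg h]
      refine Finset.sum_eq_zero fun l _ => ?_
      rw [Matrix.single_apply_of_ne _ _ _ _ _ (by simp [Ne.symm h]), zero_smul]

theorem phs_hk (i : Fin n) (k : ℤ) (z : Tor n) :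
    phs (mact (mt (hk i k)) (rep z)) - phs (rep z) = k * rep z (Sum.inr i) ^ 2 := by
  have hfl : ∀ j, ⌊rep z j⌋ = 0 := fun j => by
    have h := rep1_mem (z j)
    exact Int.floor_eq_zero_iff.mpr ⟨h.1, h.2⟩
  simp only [phs, ← Finset.sum_sub_distrib, mact_hk_inr, mact_hk_inl, hfl]
  rw [Finset.sum_eq_single i]
  · rw [if_pos rfl]
    push_cast
    ring
  · intro j _ hj
    rw [if_neg hj]
    push_cast
    ring
  · intro h; exact absurd (Finset.mem_univ _) h

theorem conj_ee (t : ℝ) : (starRingEnd ℂ) (ee t) = ee (-t) := by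
  rw [ee, ee, ← Complex.exp_conj]
  congr 1
  simp only [map_mul, Complex.conj_I, Complex.conj_ofReal, map_ofNat]
  push_cast
  ring

/-- The coefficient on the torus. -/
theorem norm_coeff (i : Fin n) {c : ℝ} (hc : 0 < c) (m : Lat n) :
    ‖∫ z : Tor n, UnitAddTorus.mFourier m z * ee (-(c * rep z (Sum.inr i) ^ 2))‖ ≤
      4 / Real.sqrt c := by
  classical
  let f : (j : Fin n ⊕ Fin n) → UnitAddCircle → ℂ := fun j t =>
    fourier (m j) t * if j = Sum.inr i then ee (-(c * rep1 t ^ 2)) else 1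
  have h1 : ∀ z : Tor n, UnitAddTorus.mFourier m z * ee (-(c * rep z (Sum.inr i) ^ 2)) =
      ∏ j, f j (z j) := by
    intro z
    rw [Finset.prod_mul_distrib]
    have h2 : (∏ j : Fin n ⊕ Fin n, if j = Sum.inr i then ee (-(c * rep1 (z j) ^ 2)) else 1) =
        ee (-(c * rep z (Sum.inr i) ^ 2)) := by
      rw [Finset.prod_ite_eq' Finset.univ (Sum.inr i) fun j => ee (-(c * rep1 (z j) ^ 2)),
        if_pos (Finset.mem_univ _)]
      rfl
    rw [h2]
    rfl
  simp only [h1]
  rw [integral_fintype_prod_volume_eq_prod, norm_prod,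
    ← Finset.mul_prod_erase Finset.univ _ (Finset.mem_univ (Sum.inr i))]
  have h3 : ‖∫ t, f (Sum.inr i) t‖ ≤ 4 / Real.sqrt c := by
    have h4 : ∀ t, f (Sum.inr i) t = fourier (m (Sum.inr i)) t * ee (-(c * rep1 t ^ 2)) :=
      fun t => by
        change _ * (if (Sum.inr i : Fin n ⊕ Fin n) = Sum.inr i then _ else _) = _
        rw [if_pos rfl]
    simp only [h4]
    exact norm_coeff1 hc _
  have h5 : ∏ j ∈ Finset.univ.erase (Sum.inr i), ‖∫ t, f j t‖ ≤ 1 := by
    refine Finset.prod_le_one (fun _ _ => norm_nonneg _) fun j hj => ?_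
    have hj' := Finset.ne_of_mem_erase hj
    calc ‖∫ t, f j t‖ ≤ ∫ t, ‖f j t‖ := norm_integral_le_integral_norm _
      _ ≤ ∫ _t : UnitAddCircle, (1 : ℝ) := by
        refine integral_mono_of_nonneg (Filter.Eventually.of_forall fun _ => norm_nonneg _)
          (integrable_const _) (Filter.Eventually.of_forall fun t => ?_)
        change ‖fourier (m j) t * (if j = Sum.inr i then _ else _)‖ ≤ 1
        rw [if_neg hj', mul_one]
        exact (Circle.norm_coe _).le
      _ = 1 := by rw [integral_const, probReal_univ, one_smul]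
  calc _ ≤ 4 / Real.sqrt c * 1 := by
        refine mul_le_mul h3 h5 (Finset.prod_nonneg fun _ _ => norm_nonneg _) (by positivity)
    _ = _ := mul_one _

/-- The coefficients of the image of the unipotent. -/
theorem norm_WW_dl (i : Fin n) {N k : ℤ} (h : 0 < N * k) (a : St.Gam n) :
    ‖(WW n N (dl ⟨0, (hk i k)⁻¹⟩) : Ell2 (St.Gam n)) a‖ ≤ 4 / Real.sqrt ((N * k : ℤ) : ℝ) := by
  set b : St.Gam n := ⟨0, (hk i k)⁻¹⟩ with hb
  have hc : (0 : ℝ) < ((N * k : ℤ) : ℝ) := Int.cast_pos.mpr h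
  have h1 : (WW n N (dl b) : Ell2 (St.Gam n)) a = ⟪(DD n N).eps a, (DD n 0).eps b⟫_ℂ := by
    rw [← inner_dl, ← (DD n N).U.inner_map_map, U_WW, Dat.U_dl, Dat.U_dl]
  rw [h1, Dat.inner_eps]
  by_cases hp : (DD n N).p a = (DD n 0).p b
  · rw [(DD n 0).eps_apply_of_eq hp, MeasureTheory.L2.inner_def]
    have hg : (eG n a).right⁻¹ = hk i k := by
      have : a.g = (hk i k)⁻¹ := hp
      change a.g⁻¹ = hk i k
      rw [this, inv_inv]
    have h2 : ∫ z, ⟪((DD n N).v a : Lp ℂ 2 (volume : Measure (Tor n))) z,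
        ((DD n 0).v b : Lp ℂ 2 (volume : Measure (Tor n))) z⟫_ℂ =
        ∫ z : Tor n, UnitAddTorus.mFourier (rot (-a.u)) z *
          ee (-(((N * k : ℤ) : ℝ) * rep z (Sum.inr i) ^ 2)) := by
      refine integral_congr_ae ?_
      filter_upwards [uv_coe (μ := (volume : Measure (Tor n))) ((DD n N).meas a) ((DD n N).nrm a),
        uv_coe (μ := (volume : Measure (Tor n))) ((DD n 0).meas b) ((DD n 0).nrm b)] with z hz hz'
      change ⟪(uv ((DD n N).w a) ((DD n N).meas a) ((DD n N).nrm a) :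
        Lp ℂ 2 (volume : Measure (Tor n))) z,
        (uv ((DD n 0).w b) ((DD n 0).meas b) ((DD n 0).nrm b) :
          Lp ℂ 2 (volume : Measure (Tor n))) z⟫_ℂ = _
      rw [hz, hz', RCLike.inner_apply]
      change wEt 0 (eG n b) z * (starRingEnd ℂ) (wEt N (eG n a) z) = _
      have h3 : wEt 0 (eG n b) z = 1 := by
        rw [wEt, wE]
        have h4 : omA (Multiplicative.toAdd (eG n b).left) (rep z) = 0 := omA_zero_left _
        rw [h4, Int.cast_zero, zero_mul, zero_add, ee_zero]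
      rw [h3, one_mul, wEt, wE, conj_ee, hg, phs_hk, ← ee_omA_rep, ← ee_add]
      congr 1
      change -(omA a.u (rep z) + _) = _
      have h5 : omA (-a.u) (rep z) = -omA a.u (rep z) := by
        have h6 := omA_add_left a.u (-a.u) (rep z)
        rw [add_neg_cancel, omA_zero_left] at h6
        linarith
      rw [h5]
      push_cast
      ring
    rw [h2]
    exact norm_coeff i hc _
  · rw [(DD n 0).eps_apply_ne hp, inner_zero_right, norm_zero]
    positivity

/-- The fourth power sums. -/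
theorem fourth_th (i : Fin n) {N k : ℤ} (h : 0 < N * k) :
    H885.fourth ((th n N).toFun (St.u (⟨0, (hk i k)⁻¹⟩ : St.Gam n))) ≤
      16 / ((N * k : ℤ) : ℝ) := by
  set b : St.Gam n := ⟨0, (hk i k)⁻¹⟩ with hb
  have hc : (0 : ℝ) < ((N * k : ℤ) : ℝ) := Int.cast_pos.mpr h
  have h1 : H885.fourth ((th n N).toFun (St.u b)) =
      ∑' s, ‖(WW n N (dl b) : Ell2 (St.Gam n)) s‖ ^ 4 := by
    have h2 : H885.fourth ((th n N).toFun (St.u b)) =
        ∑' s, ‖((th n N).toFun (St.u b) (dl 1) : Ell2 (St.Gam n)) s‖ ^ 4 :=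
      H885.fourth_eq (toAlg (th n N) (uu b))
    rw [h2]
    have h3 : (th n N).toFun (St.u b) (dl 1) = WW n N (dl b) := by
      rw [th_apply, conj_apply]
      have h4 : (WW n N).symm (dl 1) = dl 1 := by
        rw [LinearIsometryEquiv.symm_apply_eq, (spatial_WW n N).1]
      rw [h4]
      change WW n N (lam b (dl 1)) = _
      rw [lam_dl, mul_one]
    rw [h3]
  rw [h1]
  set v : Ell2 (St.Gam n) := WW n N (dl b) with hv
  have hn : ‖v‖ = 1 := by rw [hv, LinearIsometryEquiv.norm_map, norm_dl]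
  have h5 : ∀ s, ‖v s‖ ^ 4 ≤ 16 / ((N * k : ℤ) : ℝ) * ‖v s‖ ^ 2 := fun s => by
    have h6 := norm_WW_dl i h s
    have h7 : ‖v s‖ ^ 2 ≤ (4 / Real.sqrt ((N * k : ℤ) : ℝ)) ^ 2 := by gcongr
    have h8 : (4 / Real.sqrt ((N * k : ℤ) : ℝ)) ^ 2 = 16 / ((N * k : ℤ) : ℝ) := by
      rw [div_pow, Real.sq_sqrt hc.le]; norm_num
    rw [h8] at h7
    calc ‖v s‖ ^ 4 = ‖v s‖ ^ 2 * ‖v s‖ ^ 2 := by ring
      _ ≤ _ := by gcongr
  have hsum2 : Summable fun s => ‖v s‖ ^ 2 := summable_sq v
  have hsum4 : Summable fun s => ‖v s‖ ^ 4 :=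
    Summable.of_nonneg_of_le (fun _ => by positivity) h5 (hsum2.mul_left _)
  have h9 := hsum4.tsum_le_tsum h5 (hsum2.mul_left _)
  rw [tsum_mul_left, ← norm_sq, hn, one_pow, mul_one] at h9
  exact h9

/-- The automorphisms are not canonical. -/
theorem not_canonical (hn : 1 ≤ n) {N : ℤ} (hN : N ≠ 0) : ¬ St.Canonical (th n N) := by
  intro h
  obtain ⟨c, hc, hle⟩ := H885.lower_of_canonical (St.icc_Gam n) (th n N) h
  let i : Fin n := ⟨0, hn⟩
  obtain ⟨m, hm⟩ := exists_nat_gt (16 / c)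
  have hm0 : (0 : ℝ) < m := lt_trans (by positivity) hm
  have hpos : 0 < N * (N * m) := by
    have h1 : 0 < N * N := mul_self_pos.mpr hN
    have h2 : (0 : ℤ) < m := by exact_mod_cast hm0
    rw [← mul_assoc]
    exact mul_pos h1 h2
  have h1 := (hle _).trans (fourth_th i hpos)
  have h2 : (m : ℝ) ≤ ((N * (N * m) : ℤ) : ℝ) := by
    have h3 : (1 : ℤ) ≤ N * N := by
      have : 0 < N * N := mul_self_pos.mpr hN
      omega
    have h4 : (m : ℤ) ≤ N * (N * m) := by
      rw [← mul_assoc]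
      nlinarith [show (0 : ℤ) ≤ m from Int.natCast_nonneg m]
    exact_mod_cast h4
  have h3 : (16 : ℝ) / ((N * (N * m) : ℤ) : ℝ) ≤ 16 / m := by gcongr
  have h4 : 16 / (m : ℝ) < c := by
    rw [div_lt_iff₀ hm0]
    rw [div_lt_iff₀ hc] at hm
    linarith
  linarith

/-- The identity is canonical. -/
theorem canonical_zero : St.Canonical (th n 0) := by
  refine ⟨MulEquiv.refl _, 1, St.u 1, St.u 1, ?_, ?_, ?_, ?_, ?_⟩
  · intro S hS
    exact (hS 1).symm
  · intro ξ η
    change ⟪lam 1 ξ, η⟫_ℂ = ⟪ξ, lam 1 η⟫_ℂ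
    rw [lam_one]
    rfl
  · change lam 1 ∘L lam 1 = lam 1
    rw [lam_one]
    rfl
  · change lam 1 ∘L lam 1 = lam 1
    rw [lam_one]
    rfl
  · intro g ξ
    rw [th_zero]
    change lam g ξ = ((1 : Circle) : ℂ) • lam 1 (lam g (lam 1 ξ))
    rw [lam_one, Circle.coe_one, one_smul]
    rfl

theorem canonical_iff_zero (hn : 1 ≤ n) (N : ℤ) : St.Canonical (th n N) ↔ N = 0 := by
  constructor
  · intro h
    by_contra hN
    exact not_canonical hn hN h
  · rintro rfl
    exact canonical_zero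

end

end Vale.Agent.P092.R2.H350
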