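import Vale.Agent.P092.R2.H32.Grp

set_option linter.all false

open Matrix

namespace Vale.Agent.P092.R2.H350

open Vale.Agent.P092.R2.H32

variable {n : ℕ}

/-- the transvection `1 + k E_ij` -/
def tv (i j : Fin n) (hij : i ≠ j) (k : ℤ) : GL (Fin n) ℤ where
  val := transvection i j k
  inv := transvection i j (-k)
  val_inv := by rw [transvection_mul_transvection_same _ _ hij, add_neg_cancel, transvection_zero]
  inv_val := by rw [transvection_mul_transvection_same _ _ hij, neg_add_cancel, transvection_zero]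

theorem tv_mulVec (i j : Fin n) (hij : i ≠ j) (k : ℤ) (v : Fin n → ℤ) :
    (tv i j hij k : Matrix (Fin n) (Fin n) ℤ) *ᵥ v = v + Pi.single i (k * v j) := by
  change (1 + Matrix.single i j k) *ᵥ v = _
  rw [add_mulVec, one_mulVec, single_mulVec]
  rfl

/-- the element `(0, h)` -/
def ph (h : GL (Fin n) ℤ) : Par n := ⟨0, transpose_zero, h⟩

/-- the element `(S, 1)` -/
def pS (S : Matrix (Fin n) (Fin n) ℤ) (hS : Sᵀ = S) : Par n := ⟨S, hS, 1⟩

theorem ph_smul_fst (h : GL (Fin n) ℤ) (x : AA n) :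
    (ph h • x).1 = (h : Matrix (Fin n) (Fin n) ℤ) *ᵥ x.1 := by
  rw [smul_fst]
  change _ + (0 : Matrix (Fin n) (Fin n) ℤ) *ᵥ _ = _
  rw [zero_mulVec, add_zero]
  rfl

theorem pS_smul_fst (S : Matrix (Fin n) (Fin n) ℤ) (hS : Sᵀ = S) (x : AA n) :
    (pS S hS • x).1 = x.1 + S *ᵥ x.2 := by
  rw [smul_fst]
  change (1 : Matrix (Fin n) (Fin n) ℤ) *ᵥ x.1 + S *ᵥ (it 1 *ᵥ x.2) = _
  rw [it_one, one_mulVec, one_mulVec]

theorem pS_smul_snd (S : Matrix (Fin n) (Fin n) ℤ) (hS : Sᵀ = S) (x : AA n) :
    (pS S hS • x).2 = x.2 := by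
  rw [smul_snd]
  change it 1 *ᵥ x.2 = _
  rw [it_one, one_mulVec]

theorem sing_symm (i : Fin n) (k : ℤ) : (Matrix.single i i k)ᵀ = Matrix.single i i k := by
  rw [transpose_single]

/-- the action of the parabolic is faithful -/
theorem faithful (p : Par n) (h : ∀ a : AA n, p • a = a) : p = 1 := by
  have h1 : (p.h : Matrix (Fin n) (Fin n) ℤ) = 1 := by
    apply Matrix.ext_of_mulVec_single
    intro i
    have := congrArg Prod.fst (h (Pi.single i 1, 0))
    rw [smul_fst] at this
    change (p.h : Matrix (Fin n) (Fin n) ℤ) *ᵥ Pi.single i 1 +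
      p.S *ᵥ (it p.h *ᵥ (0 : Fin n → ℤ)) = Pi.single i 1 at this
    rw [mulVec_zero, mulVec_zero, add_zero] at this
    rw [this, one_mulVec]
  have h2 : p.h = 1 := Units.ext h1
  have h3 : p.S = 0 := by
    apply Matrix.ext_of_mulVec_single
    intro i
    have := congrArg Prod.fst (h (0, Pi.single i 1))
    rw [smul_fst, h2, it_one] at this
    change ((1 : GL (Fin n) ℤ) : Matrix (Fin n) (Fin n) ℤ) *ᵥ (0 : Fin n → ℤ) +
      p.S *ᵥ ((1 : Matrix (Fin n) (Fin n) ℤ) *ᵥ Pi.single i 1) = 0 at this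
    rw [mulVec_zero, zero_add, one_mulVec] at this
    rw [this, zero_mulVec]
  ext1
  · exact h3
  · exact h2

/-- conjugation by translations -/
theorem conj_t {ε : ℤ} (x : GG n ε) (a : AA n) :
    Tw.t (bb n ε) a * x * (Tw.t (bb n ε) a)⁻¹ = Tw.t (bb n ε) (a - x.p • a) * x := by
  rw [mul_inv_eq_iff_eq_mul]
  ext1
  · simp only [Tw.mul_a, Tw.t_a, Tw.t_p, one_smul, (bb n ε).one_left, Tw.mul_p, one_mul,
      (bb n ε).one_right, add_zero]
    abel
  · simp

theorem infinite_of_zsmul {X : Type} (s : Set X) (f : ℤ → X) (hf : Function.Injective f)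
    (hs : ∀ k, f k ∈ s) : s.Infinite :=
  (Set.infinite_range_of_injective hf).mono (by rintro _ ⟨k, rfl⟩; exact hs k)

theorem zsmul_inj {a : AA n} (ha : a ≠ 0) : Function.Injective fun k : ℤ => k • a :=
  fun k l h => by
    have h1 : (k - l) • a = 0 := by rw [sub_smul]; exact sub_eq_zero.mpr h
    by_contra hkl
    exact ha ((smul_eq_zero.mp h1).resolve_left (sub_ne_zero.mpr hkl))

/-- `G_ε` is ICC for `n ≥ 2`. -/
theorem icc (hn : 2 ≤ n) (ε : ℤ) (x : GG n ε) (hx : x ≠ 1) :
    (Set.range fun g : GG n ε => g * x * g⁻¹).Infinite := by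
  by_cases hp : x.p = 1
  · -- `x = t(a)`
    have hxa : x = Tw.t (bb n ε) x.a := by
      ext1
      · rfl
      · exact hp
    have ha : x.a ≠ 0 := fun h => hx (by rw [hxa, h]; rfl)
    have key : ∀ q : ℤ → Par n, Function.Injective (fun k => q k • x.a) →
        (Set.range fun g : GG n ε => g * x * g⁻¹).Infinite := fun q hq => by
      apply infinite_of_zsmul _ (fun k => Tw.t (bb n ε) (q k • x.a))
      · intro k l h
        exact hq (Tw.t_inj h)
      · intro k
        refine ⟨Tw.s (bb n ε) (q k), ?_⟩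
        beta_reduce
        rw [hxa, Tw.t_conj]
        rfl
    by_cases h2 : x.a.2 = 0
    · -- `φ = 0`
      have h1 : x.a.1 ≠ 0 := fun h => ha (Prod.ext h h2)
      obtain ⟨j, hj⟩ : ∃ j, x.a.1 j ≠ 0 := by
        by_contra hcon
        push Not at hcon
        exact h1 (funext hcon)
      haveI : Nontrivial (Fin n) := Fin.nontrivial_iff_two_le.mpr hn
      obtain ⟨i, hij⟩ := exists_ne j
      apply key fun k => ph (tv i j hij k)
      intro k l h
      have h3 := congrFun (congrArg Prod.fst h) i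
      beta_reduce at h3
      rw [ph_smul_fst, ph_smul_fst, tv_mulVec, tv_mulVec, Pi.add_apply, Pi.add_apply,
        Pi.single_eq_same, Pi.single_eq_same, add_right_inj] at h3
      exact mul_right_cancel₀ hj h3
    · obtain ⟨j, hj⟩ : ∃ j, x.a.2 j ≠ 0 := by
        by_contra hcon
        push Not at hcon
        exact h2 (funext hcon)
      apply key fun k => pS (Matrix.single j j k) (sing_symm j k)
      intro k l h
      have h3 := congrFun (congrArg Prod.fst h) j
      beta_reduce at h3
      rw [pS_smul_fst, pS_smul_fst, single_mulVec, single_mulVec, Pi.add_apply, Pi.add_apply,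
        add_right_inj] at h3
      simp only [Function.update_self] at h3
      exact mul_right_cancel₀ hj h3
  · -- `p ≠ 1`
    obtain ⟨a, ha⟩ : ∃ a : AA n, x.p • a ≠ a := by
      by_contra hcon
      push Not at hcon
      exact hp (faithful _ hcon)
    have ha' : a - x.p • a ≠ 0 := fun h => ha (sub_eq_zero.mp h).symm
    apply infinite_of_zsmul _ (fun k : ℤ => Tw.t (bb n ε) (k • (a - x.p • a)) * x)
    · intro k l h
      exact zsmul_inj ha' (Tw.t_inj (mul_right_cancel h))
    · intro k
      refine ⟨Tw.t (bb n ε) (k • a), ?_⟩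
      beta_reduce
      rw [conj_t]
      congr 2
      rw [smul_sub]
      congr 1
      let f : AA n →+ AA n := DistribMulAction.toAddMonoidHom (AA n) x.p
      exact map_zsmul f k a

end Vale.Agent.P092.R2.H350
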