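import Vale.Agent.P092.R2.H350.Icc

set_option linter.all false

open Matrix

namespace Vale.Agent.P092.R2.H350

open Vale.Agent.P092.R2.H32

variable {n : ℕ}

/-- A group property: there is an involution `z` whose commutators commute pairwise and are
squares of elements commuting with all of them. -/
def Inv (G : Type) [Group G] : Prop :=
  ∃ z : G, z ≠ 1 ∧ z * z = 1 ∧
    (∀ g g' : G, Commute (z * g * z⁻¹ * g⁻¹) (z * g' * z⁻¹ * g'⁻¹)) ∧
    ∀ g : G, ∃ c : G, z * g * z⁻¹ * g⁻¹ = c * c ∧ ∀ g' : G, Commute c (z * g' * z⁻¹ * g'⁻¹)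

theorem Inv.map {G H : Type} [Group G] [Group H] (e : G ≃* H) (h : Inv G) : Inv H := by
  obtain ⟨z, h1, h2, h3, h4⟩ := h
  have key : ∀ g : H, e z * g * (e z)⁻¹ * g⁻¹ = e (z * e.symm g * z⁻¹ * (e.symm g)⁻¹) := fun g => by
    simp only [map_mul, map_inv, MulEquiv.apply_symm_apply]
  refine ⟨e z, fun h => h1 (e.map_eq_one_iff.mp h), by rw [← map_mul, h2, map_one], ?_, ?_⟩
  · intro g g'
    rw [key, key]
    exact (h3 _ _).map e
  · intro g
    obtain ⟨c, hc1, hc2⟩ := h4 (e.symm g)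
    refine ⟨e c, by rw [key, hc1, map_mul], fun g' => ?_⟩
    rw [key]
    exact (hc2 _).map e

/-- the element `(0, -1)` of the parabolic -/
def pm (n : ℕ) : Par n := ph (-1)

theorem pm_h : ((pm n).h : Matrix (Fin n) (Fin n) ℤ) = -1 := rfl

theorem pm_mul (n : ℕ) : pm n * pm n = 1 := by
  ext1
  · change (0 : Matrix (Fin n) (Fin n) ℤ) + _ * 0 * _ = 0
    rw [Matrix.mul_zero, Matrix.zero_mul, add_zero]
  · change (-1 : GL (Fin n) ℤ) * -1 = 1
    rw [neg_mul_neg, one_mul]

theorem it_neg_one : it (-1 : GL (Fin n) ℤ) = -1 := by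
  have h : (-1 : GL (Fin n) ℤ)⁻¹ = -1 := by
    rw [inv_eq_iff_mul_eq_one, neg_mul_neg, one_mul]
  rw [it, h]
  change (-1 : Matrix (Fin n) (Fin n) ℤ)ᵀ = -1
  rw [transpose_neg, transpose_one]

theorem pm_smul (a : AA n) : pm n • a = -a := by
  ext1
  · rw [smul_fst]
    change (-1 : Matrix (Fin n) (Fin n) ℤ) *ᵥ a.1 + (0 : Matrix (Fin n) (Fin n) ℤ) *ᵥ _ = _
    rw [zero_mulVec, add_zero, neg_mulVec, one_mulVec]
    rfl
  · rw [smul_snd]
    change it (-1 : GL (Fin n) ℤ) *ᵥ a.2 = _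
    rw [it_neg_one, neg_mulVec, one_mulVec]
    rfl

theorem pm_conj (q : Par n) : pm n * q = q * pm n := by
  ext1
  · change (0 : Matrix (Fin n) (Fin n) ℤ) + (-1 : Matrix (Fin n) (Fin n) ℤ) * q.S *
      (-1 : Matrix (Fin n) (Fin n) ℤ)ᵀ = q.S + _ * 0 * _
    rw [Matrix.mul_zero, Matrix.zero_mul, add_zero, zero_add, transpose_neg, transpose_one,
      neg_mul, one_mul, mul_neg, mul_one, neg_neg]
  · change (-1 : GL (Fin n) ℤ) * q.h = q.h * -1
    rw [neg_mul, one_mul, mul_neg, mul_one]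

theorem β_neg_one {S : Matrix (Fin n) (Fin n) ℤ} (hS : Sᵀ = S) : β (-1) S = -S.diag := by
  apply two_smul_inj
  rw [two_β _ hS, twoβ, transpose_neg, transpose_one, neg_mul, one_mul, mul_neg, mul_one, neg_neg,
    neg_mulVec, one_mulVec, smul_neg, two_smul]
  abel

theorem bb_pm_left (ε : ℤ) (q : Par n) : (bb n ε).b (pm n) q = (-(ε • q.S.diag), 0) := by
  rw [bb_b, pm_h, β_neg_one q.symm, smul_neg]

theorem bb_pm_right (ε : ℤ) (q : Par n) : (bb n ε).b q (pm n) = 0 := by
  rw [bb_b]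
  change (ε • β _ 0, _) = _
  rw [β_zero_right, smul_zero]
  rfl

/-- the commutator of an element `z` over `-1` with `g` -/
theorem comm_pm {ε : ℤ} (z g : GG n ε) (hz : z.p = pm n) (hzz : z * z = 1) :
    z * g * z⁻¹ * g⁻¹ =
      Tw.t (bb n ε) (z.a - (2 : ℤ) • g.a - (ε • g.p.S.diag, 0) - g.p • z.a) := by
  have hz1 : z⁻¹ = z := inv_eq_of_mul_eq_one_right hzz
  rw [mul_inv_eq_iff_eq_mul, hz1]
  ext1
  · simp only [Tw.mul_a, Tw.mul_p, Tw.t_a, Tw.t_p, one_smul, (bb n ε).one_left, add_zero, hz,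
      bb_pm_right, bb_pm_left, pm_smul]
    rw [pm_conj, mul_smul, pm_smul, smul_neg]
    have e : ((-(ε • g.p.S.diag), 0) : AA n) = -(ε • g.p.S.diag, 0) := by
      ext1
      · rfl
      · exact neg_zero.symm
    rw [e, two_smul]
    abel
  · simp only [Tw.mul_p, Tw.t_p, one_mul, hz]
    rw [pm_conj, mul_assoc, pm_mul, mul_one]

/-- `G_0` has the property. -/
theorem inv_zero (hn : 1 ≤ n) : Inv (GG n 0) := by
  have hzz : Tw.s (bb n 0) (pm n) * Tw.s (bb n 0) (pm n) = 1 := by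
    rw [Tw.s_mul, bb_pm_right, pm_mul, Tw.t_zero, one_mul, Tw.s_one]
  have key : ∀ g : GG n 0, Tw.s (bb n 0) (pm n) * g * (Tw.s (bb n 0) (pm n))⁻¹ * g⁻¹ =
      Tw.t (bb n 0) (-g.a) * Tw.t (bb n 0) (-g.a) := fun g => by
    rw [comm_pm _ _ rfl hzz, ← Tw.t_add]
    congr 1
    rw [Tw.s_a, smul_zero, zero_smul, two_smul]
    change (0 : AA n) - (g.a + g.a) - 0 - 0 = _
    abel
  refine ⟨Tw.s (bb n 0) (pm n), ?_, hzz, ?_, ?_⟩
  · intro h
    have h1 : pm n = 1 := congrArg Tw.p h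
    have h2 := pm_smul (n := n) (Pi.single ⟨0, hn⟩ 1, 0)
    rw [h1, one_smul] at h2
    have h3 := congrFun (congrArg Prod.fst h2) ⟨0, hn⟩
    simp at h3
  · intro g g'
    rw [key, key, ← Tw.t_add, ← Tw.t_add]
    exact Tw.t_comm _ _
  · intro g
    refine ⟨Tw.t (bb n 0) (-g.a), key g, fun g' => ?_⟩
    rw [key, ← Tw.t_add]
    exact Tw.t_comm _ _

/-- the vectors on whose orbit `p` acts as `-1` -/
def NN (p : Par n) (v : AA n) : Prop := ∀ q : Par n, p • q • v = -(q • v)

theorem NN.smul {p : Par n} {v : AA n} (h : NN p v) (r : Par n) : NN p (r • v) := fun q => by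
  rw [← mul_smul q r v]; exact h _

theorem NN.sub {p : Par n} {v w : AA n} (h : NN p v) (h' : NN p w) : NN p (v - w) := fun q => by
  rw [smul_sub, smul_sub, h q, h' q]; abel

/-- some `(k e_i, 0)` with `k ≠ 0` is in `N`, hence all `(k e_i, 0)` -/
theorem NN.exists_single {p : Par n} {v : AA n} (hn : 2 ≤ n) (h : NN p v) (hv : v ≠ 0) :
    ∃ k : ℤ, k ≠ 0 ∧ ∀ i : Fin n, NN p (Pi.single i k, 0) := by
  haveI : Nontrivial (Fin n) := Fin.nontrivial_iff_two_le.mpr hn
  have spread : ∀ (j : Fin n) (k : ℤ), NN p (Pi.single j k, 0) →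
      ∀ i : Fin n, NN p (Pi.single i k, 0) := fun j k hj i => by
    by_cases hij : i = j
    · rw [hij]; exact hj
    · have h1 := (hj.smul (ph (tv i j hij 1))).sub hj
      have e : ph (tv i j hij 1) • ((Pi.single j k, 0) : AA n) - (Pi.single j k, 0) =
          (Pi.single i k, 0) := by
        ext1
        · rw [Prod.fst_sub, ph_smul_fst, tv_mulVec]
          change (Pi.single j k : Fin n → ℤ) + Pi.single i (1 * (Pi.single j k : Fin n → ℤ) j) -
            (Pi.single j k : Fin n → ℤ) = _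
          rw [Pi.single_eq_same, one_mul, add_sub_cancel_left]
        · rw [Prod.snd_sub, smul_snd]
          change it _ *ᵥ (0 : Fin n → ℤ) - 0 = 0
          rw [mulVec_zero, sub_zero]
      rw [e] at h1
      exact h1
  by_cases h2 : v.2 = 0
  · have h1 : v.1 ≠ 0 := fun h => hv (Prod.ext h h2)
    obtain ⟨j, hj⟩ : ∃ j, v.1 j ≠ 0 := by
      by_contra hcon
      push Not at hcon
      exact h1 (funext hcon)
    obtain ⟨i, hij⟩ := exists_ne j
    refine ⟨v.1 j, hj, spread i _ ?_⟩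
    have h3 := (h.smul (ph (tv i j hij 1))).sub h
    have e : ph (tv i j hij 1) • v - v = (Pi.single i (v.1 j), 0) := by
      ext1
      · rw [Prod.fst_sub, ph_smul_fst, tv_mulVec, one_mul, add_sub_cancel_left]
      · rw [Prod.snd_sub, smul_snd, h2, mulVec_zero, sub_zero]
    rw [e] at h3
    exact h3
  · obtain ⟨j, hj⟩ : ∃ j, v.2 j ≠ 0 := by
      by_contra hcon
      push Not at hcon
      exact h2 (funext hcon)
    refine ⟨v.2 j, hj, spread j _ ?_⟩
    have h3 := (h.smul (pS (Matrix.single j j 1) (sing_symm j 1))).sub h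
    have e : pS (Matrix.single j j 1) (sing_symm j 1) • v - v = (Pi.single j (v.2 j), 0) := by
      ext1
      · rw [Prod.fst_sub, pS_smul_fst, single_mulVec, one_mul, add_sub_cancel_left]
        rfl
      · rw [Prod.snd_sub, pS_smul_snd, sub_self]
    rw [e] at h3
    exact h3

theorem eq_pm {p : Par n} (hn : 2 ≤ n) (hp : p ≠ 1) (hN : ∀ a : AA n, NN p (p • a - a)) :
    p = pm n := by
  obtain ⟨a, ha⟩ : ∃ a : AA n, p • a ≠ a := by
    by_contra hcon
    push Not at hcon
    exact hp (faithful _ hcon)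
  obtain ⟨k, hk, h⟩ := (hN a).exists_single hn (sub_ne_zero.mpr ha)
  have h1 : (p.h : Matrix (Fin n) (Fin n) ℤ) = -1 := by
    apply Matrix.ext_of_mulVec_single
    intro i
    have h2 := congrArg Prod.fst (h i 1)
    rw [one_smul, smul_fst] at h2
    change (p.h : Matrix (Fin n) (Fin n) ℤ) *ᵥ Pi.single i k +
      p.S *ᵥ (it p.h *ᵥ (0 : Fin n → ℤ)) = -Pi.single i k at h2
    rw [mulVec_zero, mulVec_zero, add_zero] at h2
    have e : (Pi.single i k : Fin n → ℤ) = k • Pi.single i 1 := by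
      rw [← Pi.single_smul, smul_eq_mul, mul_one]
    rw [e, mulVec_smul, ← smul_neg] at h2
    rw [neg_mulVec, one_mulVec]
    ext l
    have h3 := congrFun h2 l
    simp only [Pi.smul_apply, smul_eq_mul] at h3
    exact mul_left_cancel₀ hk h3
  have h2 : p.h = -1 := Units.ext h1
  have h3 : p.S = 0 := by
    apply Matrix.ext_of_mulVec_single
    intro i
    have h4 := congrArg Prod.fst (hN (0, Pi.single i 1) 1)
    rw [one_smul, smul_fst] at h4
    have e1 : (p • ((0, Pi.single i 1) : AA n) - (0, Pi.single i 1)).2 = -(Pi.single i 2) := by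
      rw [Prod.snd_sub, smul_snd, h2, it_neg_one, neg_mulVec, one_mulVec]
      change -(Pi.single i 1 : Fin n → ℤ) - Pi.single i 1 = -(Pi.single i 2)
      rw [← neg_add', ← Pi.single_add]
      rfl
    rw [e1, h2, it_neg_one] at h4
    change (-1 : Matrix (Fin n) (Fin n) ℤ) *ᵥ _ + _ = -_ at h4
    rw [neg_mulVec, one_mulVec, neg_mulVec, one_mulVec, neg_neg, add_eq_left] at h4
    rw [zero_mulVec]
    have e : (Pi.single i 2 : Fin n → ℤ) = (2 : ℤ) • Pi.single i 1 := by
      rw [← Pi.single_smul, smul_eq_mul, mul_one]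
    rw [e, mulVec_smul] at h4
    exact (smul_eq_zero.mp h4).resolve_left two_ne_zero
  ext1
  · exact h3
  · exact h2

/-- `G_1` does not have the property. -/
theorem not_inv_one (hn : 2 ≤ n) : ¬ Inv (GG n 1) := by
  rintro ⟨z, h1, hzz, h3, h4⟩
  have hpp : z.p * z.p = 1 := congrArg Tw.p hzz
  have hp1 : z.p ≠ 1 := by
    intro hp
    apply h1
    have h5 := congrArg Tw.a hzz
    rw [Tw.mul_a, hp, one_smul, (bb n 1).one_left, add_zero, Tw.one_a] at h5
    have h6 : z.a = 0 := by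
      have : (2 : ℤ) • z.a = 0 := by rw [two_smul]; exact h5
      exact (smul_eq_zero.mp this).resolve_left two_ne_zero
    ext1
    · exact h6
    · exact hp
  have hpi : z.p⁻¹ = z.p := inv_eq_of_mul_eq_one_right hpp
  have hct : ∀ a : AA n, z * Tw.t (bb n 1) a * z⁻¹ * (Tw.t (bb n 1) a)⁻¹ =
      Tw.t (bb n 1) (z.p • a - a) := fun a => by
    rw [Tw.t_conj, ← Tw.t_neg, ← Tw.t_add, sub_eq_add_neg]
  have hfix : ∀ (y : GG n 1) (a : AA n), Commute y (Tw.t (bb n 1) a) → y.p • a = a :=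
    fun y a h => by
      have h5 : y * Tw.t (bb n 1) a * y⁻¹ = Tw.t (bb n 1) a := by
        rw [mul_inv_eq_iff_eq_mul]; exact h
      rw [Tw.t_conj] at h5
      exact Tw.t_inj h5
  have hN : ∀ a : AA n, NN z.p (z.p • a - a) := fun a q => by
    have h5 := h3 (Tw.s (bb n 1) q⁻¹) (Tw.t (bb n 1) a)
    rw [hct] at h5
    have h6 := hfix _ _ h5
    simp only [Tw.mul_p, Tw.inv_p, Tw.s_p, inv_inv] at h6
    have hu : z.p • (z.p • a - a) = -(z.p • a - a) := by
      rw [smul_sub, ← mul_smul, hpp, one_smul]; abel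
    rw [mul_smul, mul_smul, mul_smul, hpi] at h6
    have h7 := congrArg (fun v => q • z.p • v) h6
    beta_reduce at h7
    rw [hu, smul_neg, ← mul_smul z.p z.p, hpp, one_smul, ← mul_smul q q⁻¹, mul_inv_cancel,
      one_smul] at h7
    exact h7
  have hz : z.p = pm n := eq_pm hn hp1 hN
  -- every value of the commutator is in `2A`
  have hev : ∀ g : GG n 1, ∃ c : AA n,
      z.a - (2 : ℤ) • g.a - ((1 : ℤ) • g.p.S.diag, 0) - g.p • z.a = (2 : ℤ) • c := fun g => by
    obtain ⟨c, hc1, hc2⟩ := h4 g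
    rw [comm_pm z g hz hzz] at hc1
    have hc3 : c.p = 1 := by
      apply faithful
      intro a
      have h5' := hc2 (Tw.t (bb n 1) a)
      rw [hct] at h5'
      have h5 := hfix _ _ h5'
      have h6 : z.p • a - a = (-2 : ℤ) • a := by
        rw [hz, pm_smul, neg_smul, two_smul, neg_add']
      rw [h6] at h5
      have h7 : c.p • ((-2 : ℤ) • a) = (-2 : ℤ) • (c.p • a) :=
        map_zsmul (DistribMulAction.toAddMonoidHom (AA n) c.p) (-2) a
      have h8 : (-2 : ℤ) • (c.p • a - a) = 0 := by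
        rw [smul_sub, ← h7, h5, sub_self]
      exact sub_eq_zero.mp ((smul_eq_zero.mp h8).resolve_left (by norm_num))
    refine ⟨c.a, ?_⟩
    have h9 := congrArg Tw.a hc1
    rw [Tw.t_a, Tw.mul_a, hc3, (bb n 1).one_left, add_zero, one_smul (Par n)] at h9
    rw [h9, two_smul]
  have hS : ∀ (S : Matrix (Fin n) (Fin n) ℤ) (hS : Sᵀ = S) (i : Fin n),
      (2 : ℤ) ∣ S i i + (S *ᵥ z.a.2) i := fun S hS i => by
    obtain ⟨c, hc⟩ := hev (Tw.s (bb n 1) (pS S hS))
    have h5 := congrFun (congrArg Prod.fst hc) i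
    rw [Prod.fst_sub, Tw.s_p, pS_smul_fst, Tw.s_a, smul_zero, sub_zero, one_smul] at h5
    change z.a.1 i - S i i - (z.a.1 i + (S *ᵥ z.a.2) i) = 2 * c.1 i at h5
    exact ⟨-c.1 i, by linarith⟩
  haveI : Nontrivial (Fin n) := Fin.nontrivial_iff_two_le.mpr hn
  let i : Fin n := ⟨0, by omega⟩
  obtain ⟨j, hij⟩ := exists_ne i
  have h5 := hS (Matrix.single i i 1) (sing_symm i 1) i
  rw [single_mulVec, Matrix.single_apply_same] at h5
  simp only [Function.update_self, one_mul] at h5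
  have h6 := hS (Matrix.single i j 1 + Matrix.single j i 1)
    (by rw [transpose_add, transpose_single, transpose_single, add_comm]) j
  rw [add_mulVec, single_mulVec, single_mulVec, Matrix.add_apply] at h6
  simp only [Pi.add_apply, Function.update_self, one_mul] at h6
  rw [Matrix.single_apply_of_ne _ _ _ _ _ (by simp [hij.symm]),
    Matrix.single_apply_of_ne _ _ _ _ _ (by simp [hij.symm])] at h6
  rw [Function.update_of_ne hij] at h6
  simp only [Pi.zero_apply, zero_add, add_zero] at h6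
  omega

/-- `G_0` and `G_1` are not isomorphic for `n ≥ 2`. -/
theorem not_iso (hn : 2 ≤ n) : IsEmpty (GG n 0 ≃* GG n 1) :=
  ⟨fun e => not_inv_one hn ((inv_zero (by omega)).map e)⟩

end Vale.Agent.P092.R2.H350
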